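import Vale.Agent.Lib.P100.H28.Main

/-!
# P100: the Henon-Lane-Emden system in the degenerate ranges

The system `-Δ u = |x|^A v^p`, `-Δ v = |x|^B u^q` on the punctured space `ℝ^n ∖ {0}`,
`n ≥ 2`, `p, q > 0`, has no positive entire solution (`u, v` of class `C²` off the origin,
continuous and positive on the whole space) as soon as `n = 2`, or `A ≤ -2`, or `B ≤ -2`.
No relation between the parameters is needed; in particular this covers all subcritical
parameters in these ranges.
-/

namespace Vale.Agent.Results.P100.H28_DegenerateRanges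

theorem result (n : ℕ) (hn : 2 ≤ n) (p q A B : ℝ) (hp : 0 < p) (hq : 0 < q)
    (hdeg : n = 2 ∨ A ≤ -2 ∨ B ≤ -2)
    (u v : EuclideanSpace ℝ (Fin n) → ℝ)
    (hu : ContDiffOn ℝ 2 u {x | x ≠ 0}) (hv : ContDiffOn ℝ 2 v {x | x ≠ 0})
    (huc : Continuous u) (hvc : Continuous v)
    (hupos : ∀ x, 0 < u x) (hvpos : ∀ x, 0 < v x)
    (hequ : ∀ x, x ≠ 0 → -(Laplacian.laplacian u x) = ‖x‖ ^ A * v x ^ p)
    (heqv : ∀ x, x ≠ 0 → -(Laplacian.laplacian v x) = ‖x‖ ^ B * u x ^ q) : False :=
  Vale.Agent.Lib.P100.H28.degenerate_ranges n hn p q A B hp hq hdeg u v hu hv huc hvc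
    hupos hvpos hequ heqv

end Vale.Agent.Results.P100.H28_DegenerateRanges
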