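import Vale.Agent.Lib.P100.H28.Main

/-!
# P100: no positive supersolutions in the degenerate ranges

Three statements about differential inequalities on the punctured space `ℝ^n ∖ {0}`.

1. `n = 2`: a single inequality `-Δ u ≥ |x|^A v^p` on the whole punctured plane has no
   pair `u, v` positive off the origin (`u` of class `C²` off the origin), for all real
   `p, A`.
2. `n ≥ 3`, `A ≤ -2`: a single inequality `-Δ u ≥ |x|^A v^p`, assumed only on a punctured
   ball `0 < |x| ≤ ρ`, is impossible when `u` is continuous on the whole space and positive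
   off the origin and `v` is positive and continuous at the origin, for all real `p`.
3. Hence the Henon-Lane-Emden system has no positive supersolution `(u, v)` when `n = 2`,
   or `A ≤ -2`, or `B ≤ -2`, for all real `p, q`.
-/

namespace Vale.Agent.Results.P100.H28_Supersolutions

open Filter Topology Set

theorem result :
    (∀ (p A : ℝ) (u v : EuclideanSpace ℝ (Fin 2) → ℝ),
        ContDiffOn ℝ 2 u {x | x ≠ 0} →
        (∀ x, x ≠ 0 → 0 < u x) → (∀ x, x ≠ 0 → 0 < v x) →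
        (∀ x, x ≠ 0 → ‖x‖ ^ A * v x ^ p ≤ -(Laplacian.laplacian u x)) → False) ∧
    (∀ (n : ℕ), 3 ≤ n → ∀ (p A : ℝ), A ≤ -2 →
        ∀ (u v : EuclideanSpace ℝ (Fin n) → ℝ) (ρ : ℝ), 0 < ρ →
        ContDiffOn ℝ 2 u {x | x ≠ 0} → Continuous u → ContinuousAt v 0 →
        (∀ x, x ≠ 0 → 0 < u x) → (∀ x, 0 < v x) →
        (∀ x, x ≠ 0 → ‖x‖ ≤ ρ → ‖x‖ ^ A * v x ^ p ≤ -(Laplacian.laplacian u x)) → False) ∧
    (∀ (n : ℕ), 2 ≤ n → ∀ (p q A B : ℝ), (n = 2 ∨ A ≤ -2 ∨ B ≤ -2) →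
        ∀ (u v : EuclideanSpace ℝ (Fin n) → ℝ),
        ContDiffOn ℝ 2 u {x | x ≠ 0} → ContDiffOn ℝ 2 v {x | x ≠ 0} →
        Continuous u → Continuous v → (∀ x, 0 < u x) → (∀ x, 0 < v x) →
        (∀ x, x ≠ 0 → ‖x‖ ^ A * v x ^ p ≤ -(Laplacian.laplacian u x)) →
        (∀ x, x ≠ 0 → ‖x‖ ^ B * u x ^ q ≤ -(Laplacian.laplacian v x)) → False) := by
  -- the planar statement
  have planar : ∀ (p A : ℝ) (u v : EuclideanSpace ℝ (Fin 2) → ℝ),
      ContDiffOn ℝ 2 u {x | x ≠ 0} →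
      (∀ x, x ≠ 0 → 0 < u x) → (∀ x, x ≠ 0 → 0 < v x) →
      (∀ x, x ≠ 0 → ‖x‖ ^ A * v x ^ p ≤ -(Laplacian.laplacian u x)) → False := by
    intro p A u v hu hupos hvpos hineq
    refine Vale.Agent.Lib.P100.H28.planar_superharmonic_false u hu hupos ?_
    intro x hx
    have h1 := hineq x hx
    have hpos : 0 < ‖x‖ ^ A * v x ^ p :=
      mul_pos (Real.rpow_pos_of_pos (norm_pos_iff.mpr hx) A)
        (Real.rpow_pos_of_pos (hvpos x hx) p)
    linarith
  -- the statement for a singular weight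
  have singular : ∀ (n : ℕ), 3 ≤ n → ∀ (p A : ℝ), A ≤ -2 →
      ∀ (u v : EuclideanSpace ℝ (Fin n) → ℝ) (ρ : ℝ), 0 < ρ →
      ContDiffOn ℝ 2 u {x | x ≠ 0} → Continuous u → ContinuousAt v 0 →
      (∀ x, x ≠ 0 → 0 < u x) → (∀ x, 0 < v x) →
      (∀ x, x ≠ 0 → ‖x‖ ≤ ρ → ‖x‖ ^ A * v x ^ p ≤ -(Laplacian.laplacian u x)) → False := by
    intro n hn p A hA u v ρ1 hρ1 hu huc hvc hupos hvpos hineq
    have hv0 : 0 < v 0 := hvpos 0
    have hvp : ContinuousAt (fun x => v x ^ p) 0 := hvc.rpow_const (Or.inl hv0.ne')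
    have hv0p : 0 < v 0 ^ p := Real.rpow_pos_of_pos hv0 p
    have hev : ∀ᶠ x in 𝓝 (0 : EuclideanSpace ℝ (Fin n)), v 0 ^ p / 2 < v x ^ p :=
      hvp.eventually (lt_mem_nhds (by linarith))
    obtain ⟨ρ0, hρ0, hball⟩ := Metric.eventually_nhds_iff.mp hev
    set c := v 0 ^ p / 2 with hc
    have hcpos : 0 < c := by positivity
    set ρ := min (min (ρ0 / 2) 1) ρ1 with hρ
    have hρpos : 0 < ρ := lt_min (lt_min (by linarith) one_pos) hρ1
    have hρle1 : ρ ≤ 1 := (min_le_left _ _).trans (min_le_right _ _)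
    have hρleρ1 : ρ ≤ ρ1 := min_le_right _ _
    have hρltρ0 : ρ < ρ0 :=
      lt_of_le_of_lt ((min_le_left _ _).trans (min_le_left _ _)) (by linarith)
    refine Vale.Agent.Lib.P100.H28.singular_false hn u hu huc hupos ρ c hρpos hρle1 hcpos ?_
    intro x hx hxρ
    have hxpos : 0 < ‖x‖ := norm_pos_iff.mpr hx
    have hx1 : ‖x‖ ≤ 1 := hxρ.trans hρle1
    have h1 : ‖x‖ ^ (-2 : ℝ) ≤ ‖x‖ ^ A := Real.rpow_le_rpow_of_exponent_ge hxpos hx1 hA
    have h2 : ‖x‖ ^ (-2 : ℝ) = (‖x‖ ^ 2)⁻¹ := by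
      rw [Real.rpow_neg hxpos.le, Real.rpow_two]
    have h3 : c ≤ v x ^ p :=
      (hball (y := x) (by rw [dist_zero_right]; linarith)).le
    have h4 := hineq x hx (hxρ.trans hρleρ1)
    have h5 : (‖x‖ ^ 2)⁻¹ * c ≤ ‖x‖ ^ A * v x ^ p := by
      rw [← h2]
      exact mul_le_mul h1 h3 hcpos.le (Real.rpow_nonneg hxpos.le A)
    have h6 : -c / ‖x‖ ^ 2 = -((‖x‖ ^ 2)⁻¹ * c) := by
      field_simp
    rw [h6]
    linarith
  refine ⟨planar, singular, ?_⟩
  intro n hn p q A B hdeg u v hu hv huc hvc hupos hvpos hequ heqv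
  by_cases h2 : n = 2
  · subst h2
    exact planar p A u v hu (fun x _ => hupos x) (fun x _ => hvpos x) hequ
  · have hn3 : 3 ≤ n := by omega
    rcases hdeg with h | h | h
    · exact absurd h h2
    · exact singular n hn3 p A h u v 1 one_pos hu huc hvc.continuousAt (fun x _ => hupos x)
        hvpos (fun x hx _ => hequ x hx)
    · exact singular n hn3 q B h v u 1 one_pos hv hvc huc.continuousAt (fun x _ => hvpos x)
        hupos (fun x hx _ => heqv x hx)

end Vale.Agent.Results.P100.H28_Supersolutions
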